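import Vale.Agent.P088.R2.H558.E3

/-!
# P088, geometry of `u` at a point: algebra of `α`, `β`, `m`
-/

open MeasureTheory Set Filter
open scoped ContDiff Matrix Topology

noncomputable section

namespace Vale.Agent.P088.HY

open Vale.Agent.P088.LR

variable {n : ℕ}

/-! ### Sums -/

/-- `|Σ f g|² ≤ Σ f² Σ g²`. -/
lemma cs_sum {ι : Type*} (t : Finset ι) (f g : ι → ℝ) :
    (∑ i ∈ t, f i * g i) ^ 2 ≤ (∑ i ∈ t, f i ^ 2) * ∑ i ∈ t, g i ^ 2 :=
  Finset.sum_mul_sq_le_sq_mul_sq t f g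

lemma sum_al_pow {z : VV n} (hz : z ∈ Un n) : ∑ i, al i z ^ 2 = uu z ^ 2 - 1 := by
  rw [← sum_al_sq hz]
  exact Finset.sum_congr rfl fun i _ => pow_two _

lemma sum_be_pow {z : VV n} (hz : z ∈ Un n) : ∑ i, be i z ^ 2 = uu z ^ 2 - 1 := by
  rw [← sum_be_sq hz]
  exact Finset.sum_congr rfl fun i _ => pow_two _

lemma al_sq_le {z : VV n} (hz : z ∈ Un n) (i : Fin n) : al i z ^ 2 ≤ uu z ^ 2 - 1 := by
  rw [← sum_al_pow hz]
  exact Finset.single_le_sum (f := fun i => al i z ^ 2) (fun j _ => sq_nonneg _)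
    (Finset.mem_univ i)

lemma be_sq_le {z : VV n} (hz : z ∈ Un n) (i : Fin n) : be i z ^ 2 ≤ uu z ^ 2 - 1 := by
  rw [← sum_be_pow hz]
  exact Finset.single_le_sum (f := fun i => be i z ^ 2) (fun j _ => sq_nonneg _)
    (Finset.mem_univ i)

lemma abs_al_le {z : VV n} (hz : z ∈ Un n) (i : Fin n) : |al i z| ≤ uu z := by
  have h := al_sq_le hz i
  have h1 := one_le_uu hz
  exact abs_le_of_sq_le_sq (by linarith) (by linarith)

lemma abs_be_le {z : VV n} (hz : z ∈ Un n) (i : Fin n) : |be i z| ≤ uu z := by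
  have h := be_sq_le hz i
  have h1 := one_le_uu hz
  exact abs_le_of_sq_le_sq (by linarith) (by linarith)

lemma abs_x_le {z : VV n} (hz : z ∈ Un n) (i : Fin n) : |z.1 i| ≤ 1 := by
  have h : sq z.1 < 1 := hz.1
  have h2 : z.1 i ^ 2 ≤ sq z.1 :=
    Finset.single_le_sum (f := fun i => z.1 i ^ 2) (fun j _ => sq_nonneg _) (Finset.mem_univ i)
  exact abs_le_of_sq_le_sq (by linarith) (by norm_num)

lemma abs_y_le {z : VV n} (hz : z ∈ Un n) (i : Fin n) : |z.2 i| ≤ 1 := by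
  have h : sq z.2 < 1 := hz.2
  have h2 : z.2 i ^ 2 ≤ sq z.2 :=
    Finset.single_le_sum (f := fun i => z.2 i ^ 2) (fun j _ => sq_nonneg _) (Finset.mem_univ i)
  exact abs_le_of_sq_le_sq (by linarith) (by norm_num)

/-- `(mᵀ x)_j = -y_j + ...`. -/
lemma sum_mm_y {z : VV n} (hz : z ∈ Un n) (i : Fin n) : ∑ j, mm i j z * z.2 j =
    -z.2 i + z.1 i * yb z + (1 - 2 * r2 z) * al i z - (uu z - 1) * z.1 i * (1 - 2 * r2 z) := by
  have h1 : ∀ j, mm i j z * z.2 j = -(kd i j * z.2 j) + z.1 i * (z.2 j * be j z) +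
      al i z * (z.2 j * z.2 j) - (uu z - 1) * z.1 i * (z.2 j * z.2 j) := by
    intro j
    rw [mm_eq hz]
    ring
  simp only [h1, Finset.sum_add_distrib, Finset.sum_sub_distrib, Finset.sum_neg_distrib,
    ← Finset.mul_sum]
  rw [sum_kd i fun j => z.2 j, sum_yy]
  unfold yb
  ring

lemma sum_mm_x {z : VV n} (hz : z ∈ Un n) (j : Fin n) : ∑ i, mm i j z * z.1 i =
    -z.1 j + (1 - 2 * r1 z) * be j z + z.2 j * xa z - (uu z - 1) * (1 - 2 * r1 z) * z.2 j := by
  have h1 : ∀ i, mm i j z * z.1 i = -(kd i j * z.1 i) + be j z * (z.1 i * z.1 i) +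
      z.2 j * (z.1 i * al i z) - (uu z - 1) * z.2 j * (z.1 i * z.1 i) := by
    intro i
    rw [mm_eq hz]
    ring
  simp only [h1, Finset.sum_add_distrib, Finset.sum_sub_distrib, Finset.sum_neg_distrib,
    ← Finset.mul_sum]
  rw [sum_kd' j fun i => z.1 i, sum_xx]
  unfold xa
  ring

/-- `m β = u α`. -/
lemma sum_mm_be {z : VV n} (hz : z ∈ Un n) (i : Fin n) :
    ∑ j, mm i j z * be j z = uu z * al i z := by
  have h1 : ∀ j, mm i j z * be j z = -(kd i j * be j z) + z.1 i * (be j z * be j z) +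
      al i z * (z.2 j * be j z) - (uu z - 1) * z.1 i * (z.2 j * be j z) := by
    intro j
    rw [mm_eq hz]
    ring
  simp only [h1, Finset.sum_add_distrib, Finset.sum_sub_distrib, Finset.sum_neg_distrib,
    ← Finset.mul_sum]
  rw [sum_kd i fun j => be j z, sum_be_sq hz]
  have h2 : ∑ j, z.2 j * be j z = yb z := rfl
  rw [h2, yb_eq hz, be_lin hz, al_lin hz]
  have hr1 := (r1_pos hz).ne'
  have hr2 := (r2_pos hz).ne'
  field_simp
  ring

/-- `mᵀ α = u β`. -/
lemma sum_mm_al {z : VV n} (hz : z ∈ Un n) (j : Fin n) :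
    ∑ i, mm i j z * al i z = uu z * be j z := by
  have h1 : ∀ i, mm i j z * al i z = -(kd i j * al i z) + be j z * (z.1 i * al i z) +
      z.2 j * (al i z * al i z) - (uu z - 1) * z.2 j * (z.1 i * al i z) := by
    intro i
    rw [mm_eq hz]
    ring
  simp only [h1, Finset.sum_add_distrib, Finset.sum_sub_distrib, Finset.sum_neg_distrib,
    ← Finset.mul_sum]
  rw [sum_kd' j fun i => al i z, sum_al_sq hz]
  have h2 : ∑ i, z.1 i * al i z = xa z := rfl
  rw [h2, xa_eq hz, be_lin hz, al_lin hz]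
  have hr1 := (r1_pos hz).ne'
  have hr2 := (r2_pos hz).ne'
  field_simp
  ring

/-- `m mᵀ = 1 + α αᵀ`. -/
lemma sum_mm_mm {z : VV n} (hz : z ∈ Un n) (i k : Fin n) :
    ∑ j, mm i j z * mm k j z = kd i k + al i z * al k z := by
  have h1 : ∀ j, mm i j z * mm k j z = -(kd k j * mm i j z) + z.1 k * (mm i j z * be j z) +
      al k z * (mm i j z * z.2 j) - (uu z - 1) * z.1 k * (mm i j z * z.2 j) := by
    intro j
    rw [mm_eq hz k j]
    ring
  simp only [h1, Finset.sum_add_distrib, Finset.sum_sub_distrib, Finset.sum_neg_distrib,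
    ← Finset.mul_sum]
  rw [sum_kd k fun j => mm i j z, sum_mm_be hz, sum_mm_y hz, mm_eq hz, yb_eq hz, be_lin hz,
    al_lin hz, al_lin hz]
  have hr1 := (r1_pos hz).ne'
  have hr2 := (r2_pos hz).ne'
  field_simp
  ring

/-- `mᵀ m = 1 + β βᵀ`. -/
lemma sum_mm_mm' {z : VV n} (hz : z ∈ Un n) (j k : Fin n) :
    ∑ i, mm i j z * mm i k z = kd j k + be j z * be k z := by
  have h1 : ∀ i, mm i j z * mm i k z = -(kd i k * mm i j z) + be k z * (mm i j z * z.1 i) +
      z.2 k * (mm i j z * al i z) - (uu z - 1) * z.2 k * (mm i j z * z.1 i) := by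
    intro i
    rw [mm_eq hz i k]
    ring
  simp only [h1, Finset.sum_add_distrib, Finset.sum_sub_distrib, Finset.sum_neg_distrib,
    ← Finset.mul_sum]
  rw [sum_kd' k fun i => mm i j z, sum_mm_al hz, sum_mm_x hz, mm_eq hz, xa_eq hz, be_lin hz,
    be_lin hz, al_lin hz, kd_comm k j]
  have hr1 := (r1_pos hz).ne'
  have hr2 := (r2_pos hz).ne'
  field_simp
  ring

end Vale.Agent.P088.HY
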