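import Vale.Agent.P088.R2.H724.Geo

/-!
# P088, bounds for `m`, `α + β`, and for the entries of `s`
-/

open MeasureTheory Set Filter
open scoped ContDiff Matrix Topology

noncomputable section

namespace Vale.Agent.P088.HY

open Vale.Agent.P088.LR

variable {n : ℕ}

/-- Double sums of products. -/
lemma sum_sum_mul {ι κ : Type*} (s : Finset ι) (t : Finset κ) (f : ι → ℝ) (g : κ → ℝ) :
    ∑ i ∈ s, ∑ j ∈ t, f i * g j = (∑ i ∈ s, f i) * ∑ j ∈ t, g j := by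
  rw [Finset.sum_mul_sum]

/-- `|mᵀ ξ|² = |ξ|² + (α · ξ)²`. -/
lemma sum_mm_sq {z : VV n} (hz : z ∈ Un n) (ξ : Fin n → ℝ) :
    ∑ j, (∑ i, ξ i * mm i j z) ^ 2 = ∑ i, ξ i ^ 2 + (∑ i, al i z * ξ i) ^ 2 := by
  have h1 : ∀ j, (∑ i, ξ i * mm i j z) ^ 2 = ∑ i, ∑ k, ξ i * ξ k * (mm i j z * mm k j z) := by
    intro j
    rw [pow_two, Finset.sum_mul_sum]
    refine Finset.sum_congr rfl fun i _ => Finset.sum_congr rfl fun k _ => ?_
    ring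
  simp only [h1]
  rw [Finset.sum_comm]
  have h2 : ∀ i, ∑ j, ∑ k, ξ i * ξ k * (mm i j z * mm k j z) =
      ξ i ^ 2 + (al i z * ξ i) * ∑ k, al k z * ξ k := by
    intro i
    rw [Finset.sum_comm]
    simp only [← Finset.mul_sum, sum_mm_mm hz]
    have h3 : ∀ k, ξ i * ξ k * (kd i k + al i z * al k z) =
        ξ i * (kd i k * ξ k) + al i z * ξ i * (al k z * ξ k) := by
      intro k; ring
    simp only [h3, Finset.sum_add_distrib, ← Finset.mul_sum]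
    rw [sum_kd i ξ]
    ring
  simp only [h2, Finset.sum_add_distrib, ← Finset.sum_mul]
  ring

/-- `|m η|² = |η|² + (β · η)²`. -/
lemma sum_mm_sq' {z : VV n} (hz : z ∈ Un n) (η : Fin n → ℝ) :
    ∑ i, (∑ j, mm i j z * η j) ^ 2 = ∑ j, η j ^ 2 + (∑ j, be j z * η j) ^ 2 := by
  have h1 : ∀ i, (∑ j, mm i j z * η j) ^ 2 = ∑ j, ∑ k, η j * η k * (mm i j z * mm i k z) := by
    intro i
    rw [pow_two, Finset.sum_mul_sum]
    refine Finset.sum_congr rfl fun j _ => Finset.sum_congr rfl fun k _ => ?_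
    ring
  simp only [h1]
  rw [Finset.sum_comm]
  have h2 : ∀ j, ∑ i, ∑ k, η j * η k * (mm i j z * mm i k z) =
      η j ^ 2 + (be j z * η j) * ∑ k, be k z * η k := by
    intro j
    rw [Finset.sum_comm]
    simp only [← Finset.mul_sum, sum_mm_mm' hz]
    have h3 : ∀ k, η j * η k * (kd j k + be j z * be k z) =
        η j * (kd j k * η k) + be j z * η j * (be k z * η k) := by
      intro k; ring
    simp only [h3, Finset.sum_add_distrib, ← Finset.mul_sum]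
    rw [sum_kd j η]
    ring
  simp only [h2, Finset.sum_add_distrib, ← Finset.sum_mul]
  ring

lemma al_xi_sq {z : VV n} (hz : z ∈ Un n) (ξ : Fin n → ℝ) :
    (∑ i, al i z * ξ i) ^ 2 ≤ (uu z ^ 2 - 1) * ∑ i, ξ i ^ 2 := by
  rw [← sum_al_pow hz]
  exact cs_sum _ _ _

lemma be_xi_sq {z : VV n} (hz : z ∈ Un n) (ξ : Fin n → ℝ) :
    (∑ i, be i z * ξ i) ^ 2 ≤ (uu z ^ 2 - 1) * ∑ i, ξ i ^ 2 := by
  rw [← sum_be_pow hz]
  exact cs_sum _ _ _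

/-- `|mᵀ ξ| ≤ u |ξ|`. -/
lemma mm_sq_le {z : VV n} (hz : z ∈ Un n) (ξ : Fin n → ℝ) :
    ∑ j, (∑ i, ξ i * mm i j z) ^ 2 ≤ uu z ^ 2 * ∑ i, ξ i ^ 2 := by
  rw [sum_mm_sq hz]
  have := al_xi_sq hz ξ
  linarith

lemma mm_sq_le' {z : VV n} (hz : z ∈ Un n) (η : Fin n → ℝ) :
    ∑ i, (∑ j, mm i j z * η j) ^ 2 ≤ uu z ^ 2 * ∑ j, η j ^ 2 := by
  rw [sum_mm_sq' hz]
  have := be_xi_sq hz η
  linarith

lemma mm_form_sq {z : VV n} (hz : z ∈ Un n) (ξ η : Fin n → ℝ) :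
    (∑ i, ∑ j, ξ i * mm i j z * η j) ^ 2 ≤ uu z ^ 2 * (∑ i, ξ i ^ 2) * ∑ j, η j ^ 2 := by
  have h1 : ∑ i, ∑ j, ξ i * mm i j z * η j = ∑ j, (∑ i, ξ i * mm i j z) * η j := by
    rw [Finset.sum_comm]
    refine Finset.sum_congr rfl fun j _ => ?_
    rw [Finset.sum_mul]
  have hy : 0 ≤ ∑ i, η i ^ 2 := Finset.sum_nonneg fun i _ => sq_nonneg _
  rw [h1]
  calc _ ≤ (∑ j, (∑ i, ξ i * mm i j z) ^ 2) * ∑ j, η j ^ 2 := cs_sum _ _ _
    _ ≤ _ := mul_le_mul_of_nonneg_right (mm_sq_le hz ξ) hy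

/-- `2 |ξ · m η| ≤ u (|ξ|² + |η|²)`. -/
lemma mm_form_le2 {z : VV n} (hz : z ∈ Un n) (ξ η : Fin n → ℝ) :
    |∑ i, ∑ j, ξ i * mm i j z * η j| ≤ uu z / 2 * (∑ i, ξ i ^ 2 + ∑ j, η j ^ 2) := by
  have hu := one_le_uu hz
  have hx : 0 ≤ ∑ i, ξ i ^ 2 := Finset.sum_nonneg fun i _ => sq_nonneg _
  have hy : 0 ≤ ∑ i, η i ^ 2 := Finset.sum_nonneg fun i _ => sq_nonneg _
  apply abs_le_of_sq_le_sq _ (by positivity)
  refine (mm_form_sq hz ξ η).trans ?_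
  nlinarith [mul_nonneg (sq_nonneg (uu z)) (sq_nonneg (∑ i, ξ i ^ 2 - ∑ j, η j ^ 2))]

/-! ### `α + β` -/

lemma al_add_be {z : VV n} (hz : z ∈ Un n) (i : Fin n) : al i z + be i z =
    ((r2 z)⁻¹ - (r1 z)⁻¹) * (z.1 i - z.2 i) + (uu z - 1) * (z.1 i + z.2 i) := by
  rw [al_lin hz, be_lin hz]
  ring

/-- `|α + β|² ≤ 16 (u - 1)²`. -/
lemma sum_al_add_be_sq {z : VV n} (hz : z ∈ Un n) :
    ∑ i, (al i z + be i z) ^ 2 ≤ 16 * (uu z - 1) ^ 2 := by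
  have hr1 := r1_pos hz
  have hr2 := r2_pos hz
  have hu := one_le_uu hz
  have hq : ∑ i, (z.1 i - z.2 i) ^ 2 = 2 * r1 z * r2 z * (uu z - 1) := by
    rw [← qq_eq hz]; rfl
  have hp : ∑ i, (z.1 i + z.2 i) ^ 2 ≤ 4 := by
    have h1 : ∑ i, (z.1 i + z.2 i) ^ 2 = 2 * ∑ i, z.1 i * z.1 i + 2 * ∑ i, z.2 i * z.2 i
        - ∑ i, (z.1 i - z.2 i) ^ 2 := by
      rw [Finset.mul_sum, Finset.mul_sum, ← Finset.sum_add_distrib, ← Finset.sum_sub_distrib]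
      refine Finset.sum_congr rfl fun i _ => ?_
      ring
    rw [h1, sum_xx, sum_yy, hq]
    have : 0 ≤ 2 * r1 z * r2 z * (uu z - 1) := by
      have : 0 ≤ uu z - 1 := by linarith
      positivity
    linarith
  -- `r1 - r2 = -(x + y)·(x - y)/2`
  have hd : (r1 z - r2 z) ^ 2 ≤ 2 * r1 z * r2 z * (uu z - 1) := by
    have h1 : r1 z - r2 z = -(1 / 2) * ∑ i, (z.1 i + z.2 i) * (z.1 i - z.2 i) := by
      have h2 : ∑ i, (z.1 i + z.2 i) * (z.1 i - z.2 i) =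
          ∑ i, z.1 i * z.1 i - ∑ i, z.2 i * z.2 i := by
        rw [← Finset.sum_sub_distrib]
        refine Finset.sum_congr rfl fun i _ => ?_
        ring
      rw [h2, sum_xx, sum_yy]
      ring
    have h3 := cs_sum Finset.univ (fun i => z.1 i + z.2 i) (fun i => z.1 i - z.2 i)
    rw [h1, mul_pow]
    rw [hq] at h3
    have h4 : 0 ≤ 2 * r1 z * r2 z * (uu z - 1) := by
      have : 0 ≤ uu z - 1 := by linarith
      positivity
    nlinarith [mul_le_mul_of_nonneg_right hp h4]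
  have h5 : ∑ i, (al i z + be i z) ^ 2 ≤
      2 * (((r2 z)⁻¹ - (r1 z)⁻¹) ^ 2 * ∑ i, (z.1 i - z.2 i) ^ 2) +
        2 * ((uu z - 1) ^ 2 * ∑ i, (z.1 i + z.2 i) ^ 2) := by
    rw [Finset.mul_sum, Finset.mul_sum, Finset.mul_sum, Finset.mul_sum,
      ← Finset.sum_add_distrib]
    refine Finset.sum_le_sum fun i _ => ?_
    rw [al_add_be hz]
    nlinarith [sq_nonneg (((r2 z)⁻¹ - (r1 z)⁻¹) * (z.1 i - z.2 i) -
      (uu z - 1) * (z.1 i + z.2 i))]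
  have h6 : ((r2 z)⁻¹ - (r1 z)⁻¹) ^ 2 * ∑ i, (z.1 i - z.2 i) ^ 2 ≤ 4 * (uu z - 1) ^ 2 := by
    rw [hq]
    have h7 : ((r2 z)⁻¹ - (r1 z)⁻¹) ^ 2 = (r1 z - r2 z) ^ 2 / (r1 z * r2 z) ^ 2 := by
      field_simp
    rw [h7, div_mul_eq_mul_div, div_le_iff₀ (by positivity)]
    have h4 : 0 ≤ 2 * r1 z * r2 z * (uu z - 1) := by
      have : 0 ≤ uu z - 1 := by linarith
      positivity
    calc _ ≤ (2 * r1 z * r2 z * (uu z - 1)) * (2 * r1 z * r2 z * (uu z - 1)) :=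
          mul_le_mul_of_nonneg_right hd h4
      _ = _ := by ring
  nlinarith [mul_le_mul_of_nonneg_left hp (sq_nonneg (uu z - 1))]

/-- `|α_i + β_i| ≤ 4 (u - 1)`. -/
lemma abs_al_add_be {z : VV n} (hz : z ∈ Un n) (i : Fin n) :
    |al i z + be i z| ≤ 4 * (uu z - 1) := by
  have hu := one_le_uu hz
  have h := sum_al_add_be_sq hz
  have h1 : (al i z + be i z) ^ 2 ≤ ∑ i, (al i z + be i z) ^ 2 :=
    Finset.single_le_sum (f := fun i => (al i z + be i z) ^ 2) (fun j _ => sq_nonneg _)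
      (Finset.mem_univ i)
  exact abs_le_of_sq_le_sq (by nlinarith) (by linarith)

end Vale.Agent.P088.HY
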